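import Vale.Agent.P224.R2.H820.Final

/-!
The identity with defect for injective minimal immersions, every dimension m at least 4.
-/

namespace Vale.Agent.P224.R2.H820

open MeasureTheory Set Filter Function Real Module Vale.Agent.P224 Vale.Agent.P224.FV
  Vale.Agent.P224.SM2
open scoped RealInnerProductSpace Topology ContDiff Manifold

set_option linter.unusedSectionVars false

variable {m : ℕ} {c : ℝ}

/-- the coefficient functions in every dimension -/
theorem certOF (h4 : 4 ≤ m) (hc : 0 ≤ c) :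
    CertO m (yF (m / 2) c) (ZF (m / 2) c) (eF (m / 2) c) (rF (m / 2) c) := by
  have hm4 : (4 : ℝ) ≤ m := by exact_mod_cast h4
  have ha : (2 : ℝ) ≤ (m : ℝ) / 2 := by linarith
  refine ⟨(continuous_yF ha).continuousOn, (continuous_ZF ha).continuousOn,
    continuousOn_eF hc ha, continuousOn_rF hc ha, ?_, ?_, ?_, ?_, ?_, ?_, ?_⟩
  · intro T hT
    refine (hasDerivAt_yF ha hT).congr_deriv ?_
    rw [show 2 * ((m : ℝ) / 2) - 3 = m - 3 by ring]
  · intro T hT
    refine (hasDerivAt_ZF ha hT).congr_deriv ?_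
    rw [show 2 * ((m : ℝ) / 2) = m by ring]
  · intro T hT
    refine (hasDerivAt_eF ha hT).congr_deriv ?_
    rw [show 2 * ((m : ℝ) / 2) = m by ring]
  · intro T hT
    refine (hasDerivAt_rF hc ha hT).congr_deriv ?_
    rw [show 2 * ((m : ℝ) / 2) = m by ring]
  · exact fun T hT => eF_nonneg hc ⟨hT.1.le, hT.2.le⟩
  · exact fun T hT => rF_nonneg hc ⟨hT.1.le, hT.2.le⟩
  · exact fun T hT => yF_nonneg hc ha ⟨hT.1.le, hT.2⟩

/-- the normalisation -/
noncomputable def cn (m : ℕ) : ℝ := (m - 1) / (m - 2) / II (m / 2) 0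

/-- the coefficient functions -/
noncomputable def yM (m : ℕ) : ℝ → ℝ := yF (m / 2) (cn m)
noncomputable def ZM (m : ℕ) : ℝ → ℝ := ZF (m / 2) (cn m)
noncomputable def eM (m : ℕ) : ℝ → ℝ := eF (m / 2) (cn m)
noncomputable def rM (m : ℕ) : ℝ → ℝ := rF (m / 2) (cn m)

/-- half of the sharp ratio -/
noncomputable def lamM (m : ℕ) : ℝ := (m - 1) / (m - 2) * (II (m / 2) 1 / II (m / 2) 0)

lemma cn_nonneg (h4 : 4 ≤ m) : 0 ≤ cn m := by
  have hm4 : (4 : ℝ) ≤ m := by exact_mod_cast h4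
  have hI := II_pos (a := (m : ℝ) / 2) (by linarith) 0
  exact div_nonneg (div_nonneg (by linarith) (by linarith)) hI.le

lemma lamM_pos (h4 : 4 ≤ m) : 0 < lamM m := by
  have hm4 : (4 : ℝ) ≤ m := by exact_mod_cast h4
  have hI := II_pos (a := (m : ℝ) / 2) (by linarith) 0
  have hI1 := II_pos (a := (m : ℝ) / 2) (by linarith) 1
  exact mul_pos (div_pos (by linarith) (by linarith)) (div_pos hI1 hI)

theorem certO_M (h4 : 4 ≤ m) : CertO m (yM m) (ZM m) (eM m) (rM m) := certOF h4 (cn_nonneg h4)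

theorem certLim_M (h4 : 4 ≤ m) : CertLim m (yM m) (ZM m) (eM m) (rM m) (lamM m) := by
  have := certLimF (c := cn m) h4 (cn_nonneg h4)
  have e : cn m * II (m / 2) 1 = lamM m := by
    unfold cn lamM
    ring
  rwa [e] at this

lemma yM_zero (h4 : 4 ≤ m) : yM m 0 = ((m : ℝ) - 1) / (m - 2) := by
  have hm4 : (4 : ℝ) ≤ m := by exact_mod_cast h4
  have hI := II_pos (a := (m : ℝ) / 2) (by linarith) 0
  unfold yM yF cn
  rw [show (1 : ℝ) - 0 ^ 2 = 1 by norm_num, one_rpow]
  field_simp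

lemma ZM_zero (h4 : 4 ≤ m) : ZM m 0 = ((m : ℝ) - 1) / (m - 2) := by
  have hm4 : (4 : ℝ) ≤ m := by exact_mod_cast h4
  have hI := II_pos (a := (m : ℝ) / 2) (by linarith) 0
  unfold ZM ZF cn
  rw [show (1 : ℝ) - 0 ^ 2 = 1 by norm_num, one_rpow, Jc_zero]
  field_simp

lemma eM_zero (h4 : 4 ≤ m) : eM m 0 = 0 := by
  have hm4 : (4 : ℝ) ≤ m := by exact_mod_cast h4
  exact eF_zero (by linarith)

/-- in even dimension 2 k the sharp ratio is the one of the Clifford product -/
lemma two_lamM {k : ℕ} (hk : 2 ≤ k) : 2 * lamM (2 * k) = evenRatio k := by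
  unfold lamM
  exact lam_eq k hk

section

variable {V W M : Type*} [NormedAddCommGroup V] [InnerProductSpace ℝ V] [FiniteDimensional ℝ V]
  [NormedAddCommGroup W] [InnerProductSpace ℝ W] [FiniteDimensional ℝ W]
  [TopologicalSpace M] [ChartedSpace V M]
  [MeasurableSpace V] [BorelSpace V] [MeasurableSpace M] [BorelSpace M]

/-- the integrated defect of a hypersurface at level T -/
noncomputable def DM (V : Type*) [NormedAddCommGroup V] [InnerProductSpace ℝ V]
    [FiniteDimensional ℝ V] [MeasurableSpace V] [BorelSpace V]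
    {W M : Type*} [NormedAddCommGroup W] [InnerProductSpace ℝ W]
    [TopologicalSpace M] [ChartedSpace V M] [MeasurableSpace M]
    (F N : M → W) (T : ℝ) : ℝ :=
  DF (volM V F) (finrank ℝ V) F N (yM (finrank ℝ V)) (eM (finrank ℝ V)) (rM (finrank ℝ V)) T

/-- the sharp inequality with any integrable lower bound of the defect -/
theorem sharp_defect [MeasurableSpace W] [BorelSpace W] [IsManifold 𝓘(ℝ, V) ∞ M]
    [CompactSpace M] [T2Space M] (hm : 4 ≤ finrank ℝ V) (hW : finrank ℝ W = finrank ℝ V + 2)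
    {F : M → W} (hF : SphImm V F) (hmin : ∀ x n, IsUnitNormal V F x n → meanCurv V F x n = 0)
    {N : M → W} (hNs : ContMDiff 𝓘(ℝ, V) 𝓘(ℝ, W) ∞ N) (hN : ∀ x, IsUnitNormal V F x (N x))
    (hinj : Injective F) {B : ℝ → ℝ} (hBi : IntervalIntegrable B volume 0 1)
    (hB : ∀ T ∈ Ioo (0 : ℝ) 1, B T ≤ DM V F N T) :
    2 * lamM (finrank ℝ V) * (sphereVol (finrank ℝ V) * (volM V F).real univ)
        + ∫ T in (0 : ℝ)..1, B T
      ≤ (volM V F).real univ ^ 2
        + finrank ℝ V * rM (finrank ℝ V) 0 * ‖∫ x, N x ∂(volM V F)‖ ^ 2 := by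
  have hfin : IsFiniteMeasure (volM V F) := isFiniteMeasure_volM hF
  have hm1 : 1 ≤ finrank ℝ V := by omega
  have hT := twoPt_of_min hm1 hW hF hmin hNs hN
  have h2 := two_of_min hW hF hmin hNs hN
  have hcF : Continuous F := hF.smooth.continuous
  have hcN : Continuous N := hNs.continuous
  obtain ⟨hL, hJB⟩ := limits hm1 hW hF hcN hT hinj
  have hJle := JJ_le hF hT
  have hJP : ∀ ε > 0, ∀ᶠ φ in 𝓝[<] (π / 2), |JJ (volM V F) (finrank ℝ V) F φ
      - BB (volM V F) (finrank ℝ V) F F φ| ≤ ε := fun ε hε =>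
    limit_JB (by omega) hcF hcF hcF.measurable hcF.measurable hinj hF.unit hF.unit hJle hε
  have hpi := pi_pos
  have hM : ∀ φ ∈ Ioo 0 (π / 2), |JJ (volM V F) (finrank ℝ V) F φ| ≤ (volM V F).real univ ^ 2 := by
    intro φ hφ
    rw [abs_of_nonneg (JJ_nonneg hF.unit ⟨by linarith [hφ.1], hφ.2⟩)]
    exact hJle φ ⟨hφ.1.le, hφ.2⟩
  have hfinal := final_defect h2 (by omega) (certO_M hm) (lamM_pos hm).le (certLim_M hm)
    hL hJB hJP hM hBi hB
  have hnint : Integrable N (volM V F) :=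
    hcN.integrable_of_hasCompactSupport (HasCompactSupport.of_compactSpace N)
  have hnn : Integrable (fun q : M × M => ⟪N q.1, N q.2⟫) ((volM V F).prod (volM V F)) :=
    integrable_param ((volM V F).prod (volM V F)) h2.measurable_pr isCompact_KK h2.pr_mem
      (f := fun k => k.2.2.2) (by fun_prop) (by fun_prop)
  rwa [GG_zero (by omega) hnint hnn (yM_zero hm) (ZM_zero hm) (eM_zero hm)] at hfinal

end

end Vale.Agent.P224.R2.H820
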